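import Mathlib

open MeasureTheory

namespace Vale.Agent.P007

/-- `SL_n(R)`. -/
abbrev G (n : ℕ) : Type := Matrix.SpecialLinearGroup (Fin n) ℝ

/-- `SL_n(Z)` inside `SL_n(R)`. -/
def Gam (n : ℕ) : Subgroup (G n) :=
  (Matrix.SpecialLinearGroup.map (n := Fin n) (Int.castRingHom ℝ)).range

/-- `X_n = SL_n(Z) \ SL_n(R)`: orbits of `SL_n(Z)` acting by left multiplication. -/
def X (n : ℕ) : Type := Quotient (MulAction.orbitRel (Gam n) (G n))

/-- the quotient topology -/
instance (n : ℕ) : TopologicalSpace (X n) :=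
  inferInstanceAs (TopologicalSpace (Quotient (MulAction.orbitRel (Gam n) (G n))))

/-- the Borel sigma-algebra -/
instance (n : ℕ) : MeasurableSpace (X n) := borel (X n)

/-- the class `SL_n(Z) h` of a matrix `h` -/
def mk {n : ℕ} (h : G n) : X n := Quotient.mk (MulAction.orbitRel (Gam n) (G n)) h

/-- the right action `SL_n(Z) h ↦ SL_n(Z) h g` -/
def act {n : ℕ} (g : G n) : X n → X n :=
  Quotient.map (sa := MulAction.orbitRel (Gam n) (G n)) (sb := MulAction.orbitRel (Gam n) (G n))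
    (fun h => h * g) (fun _ b ⟨γ, hγ⟩ => ⟨γ, by rw [← hγ]; exact (mul_assoc (γ : G n) b g).symm⟩)

/-- the lattice `Z^n h` of row vectors attached to the point `SL_n(Z) h` -/
def lattice {n : ℕ} (x : X n) : Set (Fin n → ℝ) :=
  {y | ∃ h : G n, mk h = x ∧ ∃ v : Fin n → ℤ,
    y = Matrix.vecMul (fun i => (v i : ℝ)) (h : Matrix (Fin n) (Fin n) ℝ)}

/-- fractional ideals of a subring `O` of `K`: nonzero finitely generated `O`-submodules -/
def IsFrac {K : Type} [Field K] (O : Subring K) (I : Submodule O K) : Prop := I ≠ ⊥ ∧ I.FG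

/-- proper invertible fractional `O`-ideals -/
def IsPropInv {K : Type} [Field K] (O : Subring K) (I : Submodule O K) : Prop :=
  IsFrac O I ∧ (∀ α : K, (∀ x ∈ I, α * x ∈ I) ↔ α ∈ O) ∧ ∃ J, IsFrac O J ∧ I * J = 1

/-- the union of the orbits `Λ_I w A_n` of the packet of `(O, σ)` -/
def packet {n : ℕ} {K : Type} [Field K] (O : Subring K) (σ : Fin n → (K →+* ℝ)) : Set (X n) :=
  {x | ∃ I : Submodule O K, IsPropInv O I ∧ ∃ c : ℝ, 0 < c ∧ ∃ w u : Fin n → ℝ,
    (∀ j, w j = 1 ∨ w j = -1) ∧ ∑ j, u j = 0 ∧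
    lattice x = (fun α : K => fun j => c * σ j α * w j * Real.exp (u j)) '' (I : Set K)}

/-- the maximal order as a subring of `K` -/
def maxOrd (K : Type) [Field K] : Subring K := (algebraMap (NumberField.RingOfIntegers K) K).range

end Vale.Agent.P007
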