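import Vale.Agent.P007.Defs

open NumberField Module Filter

namespace Vale.Agent.P007

lemma exists_cyc (a B : ℕ) (ha : 0 < a) : ∃ p : ℕ, p.Prime ∧ B < p ∧
    ∃ (E : Type) (_ : Field E) (_ : NumberField E), IsTotallyReal E ∧ IsGalois ℚ E ∧
      finrank ℚ E = a ∧ ∃ k : ℕ, discr E ∣ (p : ℤ) ^ k := by
  obtain ⟨p, hp, hB, hmod⟩ := Nat.exists_prime_gt_modEq_one (k := 2 * a) (B + 2) (by omega)
  have : Fact p.Prime := ⟨hp⟩
  have : NeZero p := ⟨hp.ne_zero⟩
  obtain ⟨k, hk⟩ : 2 * a ∣ p - 1 := (Nat.modEq_iff_dvd' hp.one_le).1 hmod.symm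
  let L := CyclotomicField p ℚ
  have : IsCyclotomicExtension {p} ℚ L := CyclotomicField.isCyclotomicExtension p ℚ
  have : NumberField L := IsCyclotomicExtension.numberField {p} ℚ L
  have : IsCMField L := IsCyclotomicExtension.Rat.isCMField L (S := {p}) ⟨p, rfl, by omega⟩
  have : IsAbelianGalois ℚ L := IsCyclotomicExtension.isAbelianGalois {p} ℚ L
  let e := IsCyclotomicExtension.Rat.galEquivZMod p L
  let H : Subgroup (L ≃ₐ[ℚ] L) := (powMonoidHom (2 * k) : (ZMod p)ˣ →* (ZMod p)ˣ).ker.comap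
    e.toMonoidHom
  have hcard : Nat.card (ZMod p)ˣ = p - 1 := by
    rw [Nat.card_eq_fintype_card, ZMod.card_units]
  have hH : Nat.card H = 2 * k := by
    have h1 : Nat.card H = Nat.card (powMonoidHom (2 * k) : (ZMod p)ˣ →* (ZMod p)ˣ).ker := by
      refine Nat.card_congr (e.toEquiv.subtypeEquiv fun σ => Iff.rfl)
    rw [h1, IsCyclic.card_powMonoidHom_ker, hcard, hk]
    exact Nat.gcd_eq_right ⟨a, by ring⟩
  have hL : finrank ℚ L = p - 1 := by
    rw [← IsGalois.card_aut_eq_finrank, Nat.card_congr e.toEquiv, hcard]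
  have hk0 : 0 < k := by
    rcases Nat.eq_zero_or_pos k with rfl | h
    · omega
    · exact h
  let E := IntermediateField.fixedField H
  have hG : IsGalois ℚ E := (IsAbelianGalois.of_algHom (K := ℚ) (M := L) E.val).toIsGalois
  refine ⟨p, hp, by omega, E, inferInstance, inferInstance, ?_, hG, ?_, p - 2, ?_⟩
  · have : IsTotallyReal E.toSubfield := by
      rw [isTotallyReal_iff_le_maximalRealSubfield]
      intro x hx
      rw [← IsCMField.complexConj_eq_self_iff]
      have hc : (IsCMField.complexConj L).restrictScalars ℚ ∈ H := by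
        have h2 : ((IsCMField.complexConj L).restrictScalars ℚ) ^ 2 = 1 := by
          ext y; simp [pow_two]
        change (e ((IsCMField.complexConj L).restrictScalars ℚ)) ^ (2 * k) = 1
        rw [pow_mul, ← map_pow, h2, map_one, one_pow]
      exact (IntermediateField.mem_fixedField_iff H x).1 hx _ hc
    exact this
  · have h1 := finrank_mul_finrank ℚ E L
    rw [IntermediateField.finrank_fixedField_eq_card, hH, hL, hk] at h1
    have : finrank ℚ E * (2 * k) = a * (2 * k) := by rw [h1]; ring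
    exact Nat.eq_of_mul_eq_mul_right (by omega) this
  · have h1 := discr_dvd_discr E L
    rw [IsCyclotomicExtension.Rat.discr_prime p L] at h1
    rcases neg_one_pow_eq_or ℤ ((p - 1) / 2) with h | h <;> rw [h] at h1
    · simpa using h1
    · simpa using h1

lemma exists_comp (F E : Type) [Field F] [NumberField F] [Field E] [NumberField E]
    [IsTotallyReal F] [IsTotallyReal E] [IsGalois ℚ F] (h : IsCoprime (discr F) (discr E)) :
    ∃ (K : Type) (_ : Field K) (_ : NumberField K), IsTotallyReal K ∧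
      finrank ℚ K = finrank ℚ F * finrank ℚ E ∧ Nonempty (F →+* K) ∧ discr E ∣ discr K := by
  let A := AlgebraicClosure ℚ
  let φ : F →ₐ[ℚ] A := IsAlgClosed.lift
  let ψ : E →ₐ[ℚ] A := IsAlgClosed.lift
  have : FiniteDimensional ℚ φ.fieldRange := φ.equivFieldRange.toLinearEquiv.finiteDimensional
  have : FiniteDimensional ℚ ψ.fieldRange := ψ.equivFieldRange.toLinearEquiv.finiteDimensional
  let L := φ.fieldRange ⊔ ψ.fieldRange
  have : NumberField L := NumberField.mk
  let φ' : F →ₐ[ℚ] L := (IntermediateField.inclusion le_sup_left).comp φ.equivFieldRange.toAlgHom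
  let ψ' : E →ₐ[ℚ] L := (IntermediateField.inclusion le_sup_right).comp ψ.equivFieldRange.toAlgHom
  let e1 := φ'.equivFieldRange
  let e2 := ψ'.equivFieldRange
  have : IsGalois ℚ φ'.fieldRange := IsGalois.of_algEquiv e1
  have hd := linearDisjoint_of_isGalois_isCoprime_discr L φ'.fieldRange ψ'.fieldRange
    (by rwa [← discr_eq_discr_of_algEquiv F e1, ← discr_eq_discr_of_algEquiv E e2])
  let K := φ'.fieldRange ⊔ ψ'.fieldRange
  refine ⟨K, inferInstance, inferInstance, ?_, ?_, ⟨?_⟩, ?_⟩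
  · have : IsTotallyReal φ'.fieldRange.toSubfield :=
      IsTotallyReal.ofRingEquiv (F := F) (K := φ'.fieldRange) e1.toRingEquiv
    have : IsTotallyReal ψ'.fieldRange.toSubfield :=
      IsTotallyReal.ofRingEquiv (F := E) (K := ψ'.fieldRange) e2.toRingEquiv
    have : IsTotallyReal K.toSubfield := by
      rw [IntermediateField.sup_toSubfield]; infer_instance
    exact this
  · rw [hd.finrank_sup, ← e1.toLinearEquiv.finrank_eq, ← e2.toLinearEquiv.finrank_eq]
  · exact ((IntermediateField.inclusion le_sup_left).comp e1.toAlgHom).toRingHom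
  · let : Algebra E K :=
      ((IntermediateField.inclusion le_sup_right).comp e2.toAlgHom).toRingHom.toAlgebra
    exact discr_dvd_discr E K

lemma exists_theta (F : Type) [Field F] [NumberField F] (h : 2 ≤ finrank ℚ F) :
    ∃ θ : F, IsIntegral ℤ θ ∧ θ ∉ Set.range (Int.cast : ℤ → F) := by
  by_contra H
  push Not at H
  have h1 : Function.Surjective (Algebra.linearMap ℤ (𝓞 F)) := by
    intro x
    obtain ⟨k, hk⟩ := H x x.isIntegral_coe
    exact ⟨k, RingOfIntegers.ext (by simpa using hk)⟩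
  have h2 := LinearMap.finrank_le_finrank_of_surjective h1
  rw [RingOfIntegers.rank, finrank_self] at h2
  omega

lemma nonempty_ord (K : Type) [Field K] [NumberField K] [IsTotallyReal K] :
    Nonempty (Fin (finrank ℚ K) ≃ (K →+* ℝ)) := by
  have e : (K →+* ℝ) ≃ (K →+* ℂ) := Equiv.ofBijective (fun σ => Complex.ofRealHom.comp σ)
    ⟨fun σ τ h => RingHom.ext fun x => by simpa using RingHom.congr_fun h x,
     fun φ => ⟨(IsTotallyReal.complexEmbedding_isReal φ).embedding, RingHom.ext fun x => by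
       simp⟩⟩
  exact ⟨(Fintype.equivFinOfCardEq (Embeddings.card K ℂ)).symm.trans e.symm⟩

theorem exists_fields (n : ℕ) (hn : 2 ≤ n) (hc : ¬ n.Prime) :
    ∃ g : Polynomial ℤ, g ≠ 0 ∧ ∀ B : ℕ, ∃ (K : Type) (_ : Field K) (_ : NumberField K),
      IsTotallyReal K ∧ finrank ℚ K = n ∧ (B : ℤ) ≤ |discr K| ∧ ∃ θ ∈ maxOrd K,
        θ ∉ Set.range (Int.cast : ℤ → K) ∧ Polynomial.aeval θ g = 0 := by
  obtain ⟨a, ⟨b, rfl⟩, ha, hab⟩ := Nat.exists_dvd_of_not_prime2 hn hc
  have hb : 2 ≤ b := by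
    by_contra c
    have : b = 0 ∨ b = 1 := by omega
    rcases this with rfl | rfl <;> omega
  obtain ⟨p, -, -, F, _, _, hF1, hF2, hF3, -⟩ := exists_cyc a 0 (by omega)
  obtain ⟨θ, hθ1, hθ2⟩ := exists_theta F (by omega)
  refine ⟨minpoly ℤ θ, minpoly.ne_zero hθ1, fun B => ?_⟩
  obtain ⟨q, hq, hqB, E, _, _, hE1, -, hE3, k, hk⟩ :=
    exists_cyc b (B + (discr F).natAbs) (by omega)
  have hqi : Prime (q : ℤ) := Nat.prime_iff_prime_int.1 hq
  have hco : IsCoprime (discr F) (discr E) := by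
    refine IsCoprime.of_isCoprime_of_dvd_right (IsCoprime.pow_right ?_) hk
    refine (hqi.irreducible.coprime_iff_not_dvd.2 fun c => ?_).symm
    have := Nat.le_of_dvd (Int.natAbs_pos.2 (discr_ne_zero F)) (Int.natCast_dvd.1 c)
    omega
  obtain ⟨K, _, _, hK1, hK2, ⟨ι⟩, hK4⟩ := exists_comp F E hco
  have hqE : (q : ℤ) ∣ discr E := by
    by_contra c
    have h1 : IsCoprime (discr E) ((q : ℤ) ^ k) :=
      IsCoprime.pow_right (hqi.irreducible.coprime_iff_not_dvd.2 c).symm
    have h2 := h1.isUnit_of_dvd hk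
    have h3 := abs_discr_gt_two (K := E) (by omega)
    rw [Int.isUnit_iff_abs_eq] at h2
    omega
  refine ⟨K, inferInstance, inferInstance, hK1, by rw [hK2, hF3, hE3], ?_, ι θ, ?_, ?_, ?_⟩
  · have := Int.le_of_dvd (abs_pos.2 (discr_ne_zero K)) ((dvd_abs _ _).2 (hqE.trans hK4))
    omega
  · exact ⟨⟨ι θ, hθ1.map ι.toIntAlgHom⟩, rfl⟩
  · rintro ⟨m, hm⟩
    exact hθ2 ⟨m, ι.injective (by rw [map_intCast]; exact hm)⟩
  · have := Polynomial.aeval_algHom_apply ι.toIntAlgHom θ (minpoly ℤ θ)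
    rw [minpoly.aeval, map_zero] at this
    exact this

end Vale.Agent.P007
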