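import Vale.Agent.P007.Top

open NumberField Module

namespace Vale.Agent.P007

lemma propInv_one {K : Type} [Field K] [NumberField K] :
    IsPropInv (maxOrd K) (1 : Submodule (maxOrd K) K) := by
  have hm : ∀ x : K, x ∈ (1 : Submodule (maxOrd K) K) ↔ x ∈ maxOrd K := fun x => by
    rw [Submodule.mem_one]
    exact ⟨fun ⟨y, hy⟩ => hy ▸ y.2, fun h => ⟨⟨x, h⟩, rfl⟩⟩
  have hF : IsFrac (maxOrd K) (1 : Submodule (maxOrd K) K) := by
    refine ⟨fun h => ?_, ?_⟩
    · have : (1 : K) ∈ (1 : Submodule (maxOrd K) K) := (hm 1).2 (one_mem _)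
      rw [h] at this
      exact one_ne_zero ((Submodule.mem_bot _).1 this)
    · rw [Submodule.one_eq_span]; exact Submodule.fg_span_singleton _
  refine ⟨hF, fun α => ⟨fun h => ?_, fun h x hx => (hm _).2 (mul_mem h ((hm _).1 hx))⟩, 1, hF,
    mul_one _⟩
  simpa [hm] using h 1 ((hm 1).2 (one_mem _))

theorem packet_nonempty {n : ℕ} (hn : 0 < n) {K : Type} [Field K] [NumberField K]
    (hK : finrank ℚ K = n) (σ : Fin n ≃ (K →+* ℝ)) : (packet (maxOrd K) σ).Nonempty := by
  classical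
  let b : Basis (Fin n) ℤ (𝓞 K) :=
    Module.finBasisOfFinrankEq ℤ (𝓞 K) (by rw [RingOfIntegers.rank, hK])
  let M : Matrix (Fin n) (Fin n) ℝ := Matrix.of fun i j => σ j (b i)
  have hM : M.det ≠ 0 := by
    let b' : Basis (Fin n) ℚ K := b.localizationLocalization ℚ (nonZeroDivisors ℤ) K
    have hb : ∀ i, b' i = b i := fun i => Basis.localizationLocalization_apply _ _ _ _ i
    let ι : Fin n → (K →ₐ[ℚ] ℂ) := fun j => (Complex.ofRealHom.comp (σ j)).toRatAlgHom
    have hι : Function.Injective ι := fun j j' h => σ.injective (RingHom.ext fun x => by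
      simpa [ι] using AlgHom.congr_fun h x)
    let e : Fin n ≃ (K →ₐ[ℚ] ℂ) := Equiv.ofBijective ι
      ((Fintype.bijective_iff_injective_and_card ι).2 ⟨hι, by simp [hK]⟩)
    have h1 := Algebra.discr_eq_det_embeddingsMatrixReindex_pow_two ℚ ℂ b' e
    have h2 : Algebra.embeddingsMatrixReindex ℚ ℂ b' e = Complex.ofRealHom.mapMatrix M := by
      ext i j
      simp [Algebra.embeddingsMatrixReindex, Algebra.embeddingsMatrix, e, ι, M, hb]
    rw [h2, ← RingHom.map_det] at h1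
    intro h0
    rw [h0, map_zero, zero_pow two_ne_zero, map_eq_zero] at h1
    exact Algebra.discr_not_zero_of_basis ℚ b' h1
  obtain ⟨c, hc⟩ : ∃ c : ℝ, c = |M.det|⁻¹ ^ (n : ℝ)⁻¹ := ⟨_, rfl⟩
  have hp : 0 < |M.det|⁻¹ := inv_pos.2 (abs_pos.2 hM)
  have hc0 : 0 < c := hc ▸ Real.rpow_pos_of_pos hp _
  have hcn : c ^ n = |M.det|⁻¹ := by rw [hc, Real.rpow_inv_natCast_pow hp.le hn.ne']
  let w : Fin n → ℝ := Function.update 1 ⟨0, hn⟩ (SignType.sign M.det)
  have hw : ∏ j, w j = SignType.sign M.det := by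
    rw [Finset.prod_update_of_mem (Finset.mem_univ _)]; simp
  have hdet : (M * Matrix.diagonal (fun j => c * w j)).det = 1 := by
    rw [Matrix.det_mul, Matrix.det_diagonal, Finset.prod_mul_distrib, hw, Finset.prod_const,
      Finset.card_univ, Fintype.card_fin, hcn, mul_left_comm, self_mul_sign]
    exact inv_mul_cancel₀ (abs_pos.2 hM).ne'
  refine ⟨mk ⟨_, hdet⟩, 1, propInv_one, c, hc0, w, 0, fun j => ?_, by simp, ?_⟩
  · by_cases h : j = ⟨0, hn⟩
    · subst h
      rcases lt_or_gt_of_ne hM with h | h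
      · right; simp [w, sign_neg h]
      · left; simp [w, sign_pos h]
    · left; simp [w, h]
  · have key : ∀ v : Fin n → ℤ, Matrix.vecMul (fun i => (v i : ℝ))
        (M * Matrix.diagonal (fun j => c * w j)) = fun j =>
        c * σ j ((∑ i, v i • b i : 𝓞 K) : K) * w j * Real.exp ((0 : Fin n → ℝ) j) := by
      intro v; funext j
      rw [← Matrix.vecMul_vecMul, Matrix.vecMul_diagonal]
      simp [Matrix.vecMul, dotProduct, M]
      ring
    ext y
    refine (mem_lattice_mk (⟨_, hdet⟩ : G n) y).trans ?_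
    constructor
    · rintro ⟨v, rfl⟩
      exact ⟨_, Submodule.mem_one.2 ⟨⟨_, ⟨∑ i, v i • b i, rfl⟩⟩, rfl⟩, (key v).symm⟩
    · rintro ⟨_, hα, rfl⟩
      obtain ⟨⟨_, α, rfl⟩, rfl⟩ := Submodule.mem_one.1 hα
      refine ⟨b.repr α, ?_⟩
      refine Eq.trans ?_ (key _).symm
      rw [b.sum_repr α]; rfl

end Vale.Agent.P007
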