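import Vale.Agent.P007.Defs

open MeasureTheory Topology Filter

namespace Vale.Agent.P007

variable {n : ℕ}

instance : BorelSpace (X n) := ⟨rfl⟩

instance : LocallyCompactSpace (G n) :=
  haveI : LocallyCompactSpace (Matrix (Fin n) (Fin n) ℝ) :=
    inferInstanceAs (LocallyCompactSpace (Fin n → Fin n → ℝ))
  Matrix.SpecialLinearGroup.isClosedEmbedding_val.locallyCompactSpace

instance : T2Space (G n) :=
  Matrix.SpecialLinearGroup.isClosedEmbedding_val.isEmbedding.t2Space

instance : SecondCountableTopology (G n) :=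
  haveI : SecondCountableTopology (Matrix (Fin n) (Fin n) ℝ) :=
    inferInstanceAs (SecondCountableTopology (Fin n → Fin n → ℝ))
  Matrix.SpecialLinearGroup.isClosedEmbedding_val.isEmbedding.secondCountableTopology

lemma gam_tendsto : Tendsto (Gam n).subtype cofinite (cocompact (G n)) := by
  have h1 : IsClosedEmbedding (Matrix.SpecialLinearGroup.map (n := Fin n) (Int.castRingHom ℝ)) :=
    IsClosedEmbedding.specialLinearGroup_map Int.isClosedEmbedding_coe_real
  have h2 := h1.tendsto_cocompact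
  rw [cocompact_eq_cofinite] at h2
  rw [Filter.hasBasis_cocompact.tendsto_right_iff] at h2 ⊢
  intro K hK
  have h3 := h2 K hK
  rw [eventually_cofinite] at h3 ⊢
  refine (h3.image (Matrix.SpecialLinearGroup.map (n := Fin n)
    (Int.castRingHom ℝ)).rangeRestrict).subset ?_
  rintro ⟨_, γ, rfl⟩ hγ
  exact ⟨γ, hγ, rfl⟩

instance : ProperlyDiscontinuousSMul (Gam n) (G n) :=
  Subgroup.properlyDiscontinuousSMul_of_tendsto_cofinite _ gam_tendsto

lemma oq : IsOpenQuotientMap (mk : G n → X n) := MulAction.isOpenQuotientMap_quotientMk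

instance : T2Space (X n) :=
  inferInstanceAs (T2Space (Quotient (MulAction.orbitRel (Gam n) (G n))))

instance : LocallyCompactSpace (X n) := oq.locallyCompactSpace

instance : SecondCountableTopology (X n) :=
  oq.isQuotientMap.secondCountableTopology oq.isOpenMap

lemma act_mk (g h : G n) : act g (mk h) = mk (h * g) := rfl

lemma continuous_act (g : G n) : Continuous (act g : X n → X n) := by
  rw [oq.isQuotientMap.continuous_iff]
  exact oq.continuous.comp (continuous_mul_const g)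

lemma pos_of_open (m : Measure (X n)) [IsProbabilityMeasure m]
    (hm : ∀ g, m.map (act g) = m) {U : Set (X n)} (hU : IsOpen U) (h1 : mk 1 ∈ U) :
    m U ≠ 0 := by
  intro h0
  have : m Set.univ = 0 := by
    refine measure_null_of_locally_null _ fun x _ => ?_
    obtain ⟨h, rfl⟩ := oq.surjective x
    refine ⟨act h⁻¹ ⁻¹' U, ?_, ?_⟩
    · rw [nhdsWithin_univ]
      refine (hU.preimage (continuous_act _)).mem_nhds ?_
      rw [Set.mem_preimage, act_mk, mul_inv_cancel]; exact h1
    · rw [← Measure.map_apply (continuous_act _).measurable hU.measurableSet, hm]; exact h0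
  simp at this

/-- lattices stable under the diagonal matrix `d` -/
def Z (d : Fin n → ℝ) : Set (X n) := {x | ∀ y ∈ lattice x, (fun j => y j * d j) ∈ lattice x}

lemma mem_lattice_mk (h : G n) (y : Fin n → ℝ) : y ∈ lattice (mk h) ↔ ∃ v : Fin n → ℤ,
    y = Matrix.vecMul (fun i => (v i : ℝ)) (h : Matrix (Fin n) (Fin n) ℝ) := by
  constructor
  · rintro ⟨h', e, v, rfl⟩
    obtain ⟨⟨_, γ, rfl⟩, hγ⟩ := Quotient.exact e
    refine ⟨Matrix.vecMul v (γ : Matrix (Fin n) (Fin n) ℤ), ?_⟩
    have : h' = Matrix.SpecialLinearGroup.map (Int.castRingHom ℝ) γ * h := hγ.symm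
    rw [this, Matrix.SpecialLinearGroup.coe_mul, ← Matrix.vecMul_vecMul]
    congr 1
    funext i
    simp [Matrix.vecMul, dotProduct]
  · rintro ⟨v, rfl⟩
    exact ⟨h, rfl, v, rfl⟩

lemma mem_Z_mk (d : Fin n → ℝ) (h : G n) : mk h ∈ Z d ↔ ∀ i j,
    ((h : Matrix (Fin n) (Fin n) ℝ) * Matrix.diagonal d * (h⁻¹ : G n)) i j ∈
      Set.range (Int.cast : ℤ → ℝ) := by
  have hd : ∀ y : Fin n → ℝ, (fun j => y j * d j) = Matrix.vecMul y (Matrix.diagonal d) := by
    intro y; funext j; rw [Matrix.vecMul_diagonal]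
  have h1 : (h : Matrix (Fin n) (Fin n) ℝ) * (h⁻¹ : G n) = 1 := by
    rw [← Matrix.SpecialLinearGroup.coe_mul, mul_inv_cancel, Matrix.SpecialLinearGroup.coe_one]
  have h2 : ((h⁻¹ : G n) : Matrix (Fin n) (Fin n) ℝ) * h = 1 := by
    rw [← Matrix.SpecialLinearGroup.coe_mul, inv_mul_cancel, Matrix.SpecialLinearGroup.coe_one]
  constructor
  · intro H i j
    have a := H (Matrix.vecMul (fun k => ((Pi.single i (1:ℤ) : Fin n → ℤ) k : ℝ)) h)
      ((mem_lattice_mk _ _).2 ⟨_, rfl⟩)
    obtain ⟨v, hv⟩ := (mem_lattice_mk _ _).1 a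
    rw [hd] at hv
    have b := congrArg (fun y => Matrix.vecMul y ((h⁻¹ : G n) : Matrix (Fin n) (Fin n) ℝ)) hv
    simp only [Matrix.vecMul_vecMul, h1, Matrix.vecMul_one] at b
    have e : (fun k => ((Pi.single i (1:ℤ) : Fin n → ℤ) k : ℝ)) = Pi.single i (1:ℝ) := by
      funext k; by_cases c : k = i
      · subst c; simp
      · simp [c]
    rw [e, Matrix.single_one_vecMul] at b
    exact ⟨v j, (congrFun b j).symm⟩
  · intro H y hy
    obtain ⟨v, rfl⟩ := (mem_lattice_mk _ _).1 hy
    choose M hM using H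
    refine (mem_lattice_mk _ _).2 ⟨Matrix.vecMul v (Matrix.of M), ?_⟩
    have e : (fun i => ((Matrix.vecMul v (Matrix.of M) i : ℤ) : ℝ)) =
        Matrix.vecMul (fun i => (v i : ℝ))
          ((h : Matrix (Fin n) (Fin n) ℝ) * Matrix.diagonal d *
            ((h⁻¹ : G n) : Matrix (Fin n) (Fin n) ℝ)) := by
      funext i
      simp only [Matrix.vecMul, dotProduct, ← hM]
      simp
    rw [hd, e, Matrix.vecMul_vecMul, Matrix.vecMul_vecMul, Matrix.mul_assoc _ _ (h : Matrix (Fin n) (Fin n) ℝ),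
      h2, Matrix.mul_one]

lemma isClosed_Z (d : Fin n → ℝ) : IsClosed (Z d) := by
  rw [← oq.isQuotientMap.isClosed_preimage]
  have : mk ⁻¹' Z d = ⋂ i, ⋂ j, (fun h : G n =>
      ((h : Matrix (Fin n) (Fin n) ℝ) * Matrix.diagonal d * (h⁻¹ : G n)) i j) ⁻¹'
        Set.range (Int.cast : ℤ → ℝ) := by
    ext h; simp only [Set.mem_preimage, mem_Z_mk, Set.mem_iInter]
  rw [this]
  refine isClosed_iInter fun i => isClosed_iInter fun j =>
    Int.isClosedEmbedding_coe_real.isClosed_range.preimage ?_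
  have c1 : Continuous (fun h : G n => (h : Matrix (Fin n) (Fin n) ℝ)) := continuous_subtype_val
  have c2 : Continuous (fun h : G n => ((h⁻¹ : G n) : Matrix (Fin n) (Fin n) ℝ)) :=
    c1.comp continuous_inv
  exact ((c1.mul continuous_const).mul c2).matrix_elem i j

lemma one_not_mem_Z (d : Fin n → ℝ) (j : Fin n) (hj : d j ∉ Set.range (Int.cast : ℤ → ℝ)) :
    mk 1 ∉ Z d := by
  rw [mem_Z_mk]
  intro H
  have := H j j
  simp at this
  exact hj (by simpa using this)

lemma packet_subset {K : Type} [Field K] (O : Subring K) (σ : Fin n → (K →+* ℝ)) {θ : K}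
    (hθ : θ ∈ O) : packet O σ ⊆ Z (fun j => σ j θ) := by
  rintro x ⟨I, -, c, -, w, u, -, -, e⟩ y hy
  rw [e] at hy ⊢
  obtain ⟨α, hα, rfl⟩ := hy
  refine ⟨θ * α, I.smul_mem ⟨θ, hθ⟩ hα, ?_⟩
  funext j
  simp only [map_mul]; ring

theorem criterion (hn : 0 < n) (g : Polynomial ℤ) (hg : g ≠ 0) :
    ∃ f : CompactlySupportedContinuousMap (X n) ℝ, (∀ m : Measure (X n), IsProbabilityMeasure m →
      (∀ g, m.map (act g) = m) → 0 < ∫ x, f x ∂m) ∧
      ∀ (K : Type) [Field K] (O : Subring K) (σ : Fin n → (K →+* ℝ)) (θ : K), θ ∈ O →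
        θ ∉ Set.range (Int.cast : ℤ → K) → Polynomial.aeval θ g = 0 →
        ∀ x ∈ packet O σ, f x = 0 := by
  classical
  let S : Set (Fin n → ℝ) := {d | ∀ j, d j ∈ g.rootSet ℝ ∧ d j ∉ Set.range (Int.cast : ℤ → ℝ)}
  have hS : S.Finite := (Set.Finite.pi' fun _ : Fin n => g.rootSet_finite ℝ).subset
    fun d hd j => (hd j).1
  have hC : IsClosed (⋃ d ∈ S, Z d) := hS.isClosed_biUnion fun d _ => isClosed_Z d
  have h1 : mk 1 ∉ ⋃ d ∈ S, Z d := by
    simp only [Set.mem_iUnion, not_exists]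
    exact fun d hd => one_not_mem_Z d ⟨0, hn⟩ (hd _).2
  obtain ⟨f, f1, f0, fc, fr⟩ := exists_continuous_one_zero_of_isCompact
    (isCompact_singleton (x := (mk 1 : X n))) hC (Set.disjoint_singleton_left.2 h1)
  refine ⟨⟨f, fc⟩, fun m hm hinv => ?_, fun K _ O σ θ h1 h2 h3 x hx => ?_⟩
  · change 0 < ∫ x, f x ∂m
    rw [integral_pos_iff_support_of_nonneg (fun x => (fr x).1)
      (f.continuous.integrable_of_hasCompactSupport fc), pos_iff_ne_zero]
    refine pos_of_open m hinv f.continuous.isOpen_support ?_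
    rw [Function.mem_support, f1 rfl]; simp
  · refine f0 (Set.mem_biUnion (x := fun j => σ j θ) (fun j => ⟨?_, ?_⟩) (packet_subset O σ h1 hx))
    · rw [Polynomial.mem_rootSet]
      refine ⟨hg, ?_⟩
      have := Polynomial.aeval_algHom_apply (σ j).toIntAlgHom θ g
      rw [h3, map_zero] at this
      exact this
    · rintro ⟨k, hk⟩
      refine h2 ⟨k, (σ j).injective ?_⟩
      rw [map_intCast]; exact hk

end Vale.Agent.P007
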